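import Vale.Agent.Lib.P064.Final

/-!
The key inequality of the second Kahn-Kalai problem for every subgraph, with `L = O(log e(H))`,
and the resulting comparison `p~_E = O(p_E log n)`.
-/

open Vale.Agent.Lib.P064

/-- Let `H` be a graph with at least one edge on at most `n ≥ 2` vertices.
If all subgraphs of `H` have expected count at least `1` in `G(n, q)`, then for every subgraph `F`
of `H`, `N(H, F)` is at most the expected count of `F` in `G(n, min 1 (L q))`, with
`L = 1700 log n`, and also with `L = 576 k` for each `k` with `e(H) < 4 ^ k`.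
Moreover `p~_E(n, H) ≤ 3400 log n * p_E(n, H)`. -/
theorem Vale.Agent.Results.P064.LogKeyLemma.result {V : Type} [Fintype V] (n : ℕ) (hn : 2 ≤ n)
    (H : SimpleGraph V) (hV : Fintype.card V ≤ n) (hE : H.edgeSet.Nonempty) :
    (∀ q : ℝ, 0 < q → q ≤ 1 → (∀ F : H.Subgraph, 1 ≤ expCopies n q F.coe) →
      (∀ F : H.Subgraph, (copies H F.coe : ℝ) ≤ expCopies n (min 1 (1700 * Real.log n * q)) F.coe) ∧
      (∀ k : ℕ, H.edgeSet.ncard < 4 ^ k → ∀ F : H.Subgraph,
        (copies H F.coe : ℝ) ≤ expCopies n (min 1 (576 * (k : ℝ) * q)) F.coe)) ∧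
    pTildeE n H ≤ 3400 * Real.log n * pE n H := by
  refine ⟨fun q hq _ hcond => ⟨fun F => ?_, fun k hk F => ?_⟩, pTilde_le hn hV hE⟩
  · exact key_lemma hV hq hcond _ (card_edges_lt hn hV) F (clog_le_log hn)
  · refine key_lemma hV hq hcond k ?_ F le_rfl
    rwa [← ncard_edgeSet_eq]
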